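import Vale.Agent.P063.Width

namespace Vale.Agent.Results.P063.SharpWidth

open Vale.Agent.P063

theorem result (r : ℕ) (hr : 2 ≤ r) :
    ∃ C : ℝ, 0 < C ∧ ∀ ε : ℝ, 0 < ε → ε < 1 / 2 → ∀ n : ℕ, r ≤ n →
      ∀ P : Set (Edge n r → Bool), IsIncProperty P →
        width P ε ≤ C * Real.log ((1 - ε) / ε) * Real.log n ^ (-((r : ℝ) / ((r : ℝ) - 1))) :=
  width_bound hr

end Vale.Agent.Results.P063.SharpWidth
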